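import Mathlib.Algebra.Group.Defs

/-!
The (standard, unrestricted) wreath product `X ∘ Y` of two monoids.
-/

namespace Vale.Agent.P329h26

/-- The underlying set of the wreath product `X ∘ Y`: a function `Y → X` and a top coordinate. -/
@[ext] structure Wr (X Y : Type) where
  /-- The base coordinate, a function from `Y` to `X`. -/
  fn : Y → X
  /-- The top coordinate. -/
  top : Y

/-- The wreath product of monoids with the standard multiplication
`(f, y) (f', y') = (m ↦ f m * f' (m * y), y * y')`. -/
instance {X Y : Type} [Monoid X] [Monoid Y] : Monoid (Wr X Y) where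
  mul a b := ⟨fun m => a.fn m * b.fn (m * a.top), a.top * b.top⟩
  one := ⟨fun _ => 1, 1⟩
  mul_assoc a b c := by
    apply Wr.ext
    · funext m
      change a.fn m * b.fn (m * a.top) * c.fn (m * (a.top * b.top)) =
        a.fn m * (b.fn (m * a.top) * c.fn (m * a.top * b.top))
      rw [mul_assoc, mul_assoc]
    · change a.top * b.top * c.top = a.top * (b.top * c.top)
      rw [mul_assoc]
  one_mul a := by
    apply Wr.ext
    · funext m
      change 1 * a.fn (m * 1) = a.fn m
      rw [one_mul, mul_one]
    · change 1 * a.top = a.top
      rw [one_mul]
  mul_one a := by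
    apply Wr.ext
    · funext m
      change a.fn m * 1 = a.fn m
      rw [mul_one]
    · change a.top * 1 = a.top
      rw [mul_one]

end Vale.Agent.P329h26
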