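import Vale.Agent.P329h26.WrDefs
import Vale.Agent.P329.Cover
import Mathlib.Algebra.FreeMonoid.Basic
import Mathlib.GroupTheory.OrderOfElement
import Mathlib.Algebra.BigOperators.Group.Finset.Basic
import Mathlib.Algebra.BigOperators.Group.Finset.Piecewise
import Mathlib.Data.Fintype.Prod
import Mathlib.Data.Fintype.Pi

namespace Vale.Agent.P329h26

open Vale.Agent.P329

section Basics

variable {X Y : Type} [Monoid X] [Monoid Y]

theorem Wr.mul_fn (a b : Wr X Y) (m : Y) : (a * b).fn m = a.fn m * b.fn (m * a.top) := rfl
theorem Wr.mul_top (a b : Wr X Y) : (a * b).top = a.top * b.top := rfl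
theorem Wr.one_fn (m : Y) : (1 : Wr X Y).fn m = 1 := rfl
theorem Wr.one_top : (1 : Wr X Y).top = 1 := rfl

/-- The projection of the wreath product onto its top coordinate. -/
def topHom : Wr X Y →* Y where
  toFun := Wr.top
  map_one' := rfl
  map_mul' _ _ := rfl

end Basics

instance {X Y : Type} [Finite X] [Finite Y] : Finite (Wr X Y) :=
  Finite.of_injective (fun a : Wr X Y => (a.fn, a.top)) (by
    rintro ⟨f, y⟩ ⟨f', y'⟩ h
    simp only [Prod.mk.injEq] at h
    rw [h.1, h.2])

/-- A function is determined by its values on `[]` and on `cons`. -/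
theorem ofList_cons_eq {S M : Type} [Monoid M] (Φ : FreeMonoid S →* M) (s : S) (w : List S) :
    Φ (FreeMonoid.ofList (s :: w)) = Φ (FreeMonoid.of s) * Φ (FreeMonoid.ofList w) := by
  rw [FreeMonoid.ofList_cons, map_mul]

section Tagged

variable {S X Y : Type} [Monoid X] [Monoid Y]

/-- The word value of a letter map into the wreath product at the point `m`. -/
def val (g : S → Y → X) (y : S → Y) : Y → List S → X
  | _, [] => 1
  | m, s :: w => g s m * val g y (m * y s) w

/-- The value of a word in the top coordinate. -/
def topv (y : S → Y) (w : List S) : Y := (w.map y).prod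

@[simp] theorem topv_nil (y : S → Y) : topv y [] = 1 := rfl

theorem topv_cons (y : S → Y) (s : S) (w : List S) : topv y (s :: w) = y s * topv y w := by
  simp [topv]

theorem topv_append (y : S → Y) (v w : List S) : topv y (v ++ w) = topv y v * topv y w := by
  simp [topv]

theorem wr_fn_eq (Φ : FreeMonoid S →* Wr X Y) (w : List S) (m : Y) :
    (Φ (FreeMonoid.ofList w)).fn m =
      val (fun s => (Φ (FreeMonoid.of s)).fn) (fun s => (Φ (FreeMonoid.of s)).top) m w := by
  induction w generalizing m with
  | nil =>
    have : Φ (FreeMonoid.ofList ([] : List S)) = 1 := by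
      rw [FreeMonoid.ofList_nil, map_one]
    rw [this]; rfl
  | cons s w ih =>
    rw [ofList_cons_eq, Wr.mul_fn, ih]
    rfl

theorem wr_top_eq (Φ : FreeMonoid S →* Wr X Y) (w : List S) :
    (Φ (FreeMonoid.ofList w)).top = topv (fun s => (Φ (FreeMonoid.of s)).top) w := by
  induction w with
  | nil =>
    have : Φ (FreeMonoid.ofList ([] : List S)) = 1 := by
      rw [FreeMonoid.ofList_nil, map_one]
    rw [this]; rfl
  | cons s w ih =>
    rw [ofList_cons_eq, Wr.mul_top, ih, topv_cons]

omit [Monoid X] [Monoid Y] in
/-- Assemble measurability of a map into a wreath product from its coordinates. -/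
theorem wr_meas [Monoid X] [Monoid Y] [Finite X] [Finite Y] {k : ℕ} (Φ : List S → Wr X Y)
    (hfn : ∀ m, Meas k (fun w => (Φ w).fn m)) (htop : Meas k (fun w => (Φ w).top)) :
    Meas k Φ := by
  refine ((Meas.pi hfn).pair htop).of_det (fun x y h => ?_)
  simp only [Prod.mk.injEq] at h
  apply Wr.ext
  · funext m
    exact congrFun h.1 m
  · exact h.2

end Tagged

section CoverOfAper

variable {A Q : Type}

/-- In an aperiodic automaton, every periodic thread is fixed, hence all cycles count. -/
theorem aper_counts (act : A → Q → Q) (e : A → Q → Prop) (h : Aper act) :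
    CountsCycles act e := by
  intro u x c hc hx _
  obtain ⟨n, hn⟩ := h u x
  set f := fun y => run act y u with hf
  have h1 : ∀ K, f^[c * K] x = x := by
    intro K
    induction K with
    | zero => rfl
    | succ K ih =>
      rw [Nat.mul_succ, Function.iterate_add_apply, hx, ih]
  have h2 : ∀ K, f^[K] (f^[n] x) = f^[n] x := by
    intro K
    induction K with
    | zero => rfl
    | succ K ih =>
      rw [Function.iterate_succ_apply', ih]
      exact hn
  have h3 : x = f^[n] x := by
    have hle : n ≤ c * n := Nat.le_mul_of_pos_left n hc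
    obtain ⟨L, hL⟩ := Nat.exists_eq_add_of_le hle
    have h4 := h1 n
    rw [hL, Nat.add_comm, Function.iterate_add_apply, h2 L] at h4
    exact h4.symm
  change f x = x
  rw [h3]
  exact hn

end CoverOfAper

section TagAutomaton

variable {S N : Type} [Monoid N]

/-- The automaton remembering the prefix value and the last transition. -/
def tact (y : S → N) (s : S) (q : N × Option (N × S)) : N × Option (N × S) :=
  (q.1 * y s, some (q.1, s))

theorem tact_run_fst (y : S → N) (w : List S) (q : N × Option (N × S)) :
    (run (tact y) q w).1 = q.1 * topv y w := by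
  induction w generalizing q with
  | nil => simp
  | cons s w ih =>
    rw [run_cons, ih, topv_cons, ← mul_assoc]
    rfl

theorem tact_run_indep (y : S → N) {w : List S} (hw : w ≠ []) (q q' : N × Option (N × S))
    (h : q.1 = q'.1) : run (tact y) q w = run (tact y) q' w := by
  cases w with
  | nil => exact absurd rfl hw
  | cons s w =>
    rw [run_cons, run_cons]
    simp only [tact, h]

theorem tact_aper (hN : ∀ x : N, ∃ n, x ^ n = x ^ (n + 1)) (y : S → N) : Aper (tact y) := by
  intro u q
  by_cases hu : u = []
  · subst hu
    exact ⟨0, rfl⟩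
  obtain ⟨k, hk⟩ := hN (topv y u)
  set f := fun x => run (tact y) x u with hf
  have h1 : ∀ K, (f^[K] q).1 = q.1 * topv y u ^ K := by
    intro K
    induction K with
    | zero => simp
    | succ K ih =>
      rw [Function.iterate_succ_apply', hf]
      simp only
      rw [tact_run_fst, ih, pow_succ, mul_assoc]
  refine ⟨k + 1, ?_⟩
  change f (f^[k + 1] q) = f^[k + 1] q
  rw [Function.iterate_succ_apply']
  apply tact_run_indep y hu
  have h2 := h1 (k + 1)
  have h3 := h1 k
  rw [Function.iterate_succ_apply'] at h2
  rw [h2, h3, ← hk]

/-- Counting the transitions with prefix value and letter `p`. -/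
def etag (p : N × S) (s : S) (q : N × Option (N × S)) : Prop := (q.1, s) = p

theorem etag_lands (y : S → N) (p : N × S) (s : S) (q : N × Option (N × S)) (h : etag p s q) :
    tact y s q = (p.1 * y p.2, some p) := by
  unfold etag at h
  subst h
  rfl

/-- The number of occurrences of the tag `p` in the word read from prefix value `n`. -/
noncomputable def tcount (y : S → N) (p : N × S) (n : N) (w : List S) : ℕ :=
  gain (tact y) (etag p) (n, none) w

open scoped Classical in
theorem gain_tact_indep (y : S → N) (p : N × S) (w : List S) (q q' : N × Option (N × S))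
    (h : q.1 = q'.1) : gain (tact y) (etag p) q w = gain (tact y) (etag p) q' w := by
  induction w generalizing q q' with
  | nil => rfl
  | cons s w ih =>
    rw [gain_cons, gain_cons]
    have h1 : etag p s q ↔ etag p s q' := by simp only [etag, h]
    have h2 := ih (tact y s q) (tact y s q') (by simp only [tact, h])
    rw [h2, if_congr h1 rfl rfl]

theorem tcount_nil (y : S → N) (p : N × S) (n : N) : tcount y p n [] = 0 := rfl

open scoped Classical in
theorem tcount_cons (y : S → N) (p : N × S) (n : N) (s : S) (w : List S) :
    tcount y p n (s :: w) = (if (n, s) = p then 1 else 0) + tcount y p (n * y s) w := by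
  unfold tcount
  rw [gain_cons, gain_tact_indep y p w (tact y s (n, none)) (n * y s, none) rfl]
  congr 1
  exact if_congr Iff.rfl rfl rfl

theorem tcount_CM [Finite S] [Finite N] (hN : ∀ x : N, ∃ n, x ^ n = x ^ (n + 1)) (y : S → N)
    (p : N × S) (n : N) : CM (fun w : List S => (tcount y p n w : ℤ)) :=
  gain_CM (tact y) (etag p) (p.1 * y p.2, some p) (etag_lands y p)
    (aper_counts _ _ (tact_aper hN y)) (n, none)

end TagAutomaton

section AbelianStep

variable {S G N : Type} [Finite S] [CommGroup G] [Finite G] [Monoid N] [Finite N]

omit [Finite S] [Finite G] [Finite N] in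
open scoped Classical in
/-- The product formula: the value of a word in an abelian group is determined by the tag counts. -/
theorem val_prod [Fintype S] [Fintype N] (g : S → N → G) (y : S → N) (w : List S) (n : N) :
    val g y n w = ∏ p : N × S, g p.2 p.1 ^ tcount y p n w := by
  induction w generalizing n with
  | nil => simp [val, tcount_nil]
  | cons s w ih =>
    rw [val, ih]
    have h1 : ∀ p : N × S, g p.2 p.1 ^ tcount y p n (s :: w) =
        (if (n, s) = p then g p.2 p.1 else 1) * g p.2 p.1 ^ tcount y p (n * y s) w := by
      intro p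
      rw [tcount_cons, pow_add]
      split_ifs <;> simp
    simp only [h1]
    rw [Finset.prod_mul_distrib, Finset.prod_ite_eq]
    simp

/-- The value of a word in `G ∘ N` at a point is measurable. -/
theorem val_meas (hN : ∀ x : N, ∃ n, x ^ n = x ^ (n + 1)) (g : S → N → G) (y : S → N) (n : N) :
    Meas 1 (fun w : List S => val g y n w) := by
  classical
  have := Fintype.ofFinite S
  have := Fintype.ofFinite N
  have hM : NeZero (Nat.card G) := ⟨Nat.card_pos.ne'⟩
  have hm := Meas.pi (fun p : N × S => tcount_CM hN y p n (Nat.card G))
  refine hm.of_det (fun u v huv => ?_)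
  rw [val_prod, val_prod]
  refine Finset.prod_congr rfl (fun p _ => ?_)
  have h1 := congrFun huv p
  simp only [Int.cast_natCast] at h1
  have h2 : tcount y p n u % Nat.card G = tcount y p n v % Nat.card G :=
    (ZMod.natCast_eq_natCast_iff' _ _ _).1 h1
  rw [← pow_mod_natCard, h2, pow_mod_natCard]

/-- The top coordinate is measurable when the top is aperiodic. -/
theorem topv_meas (hN : ∀ x : N, ∃ n, x ^ n = x ^ (n + 1)) (y : S → N) :
    Meas 1 (fun w : List S => topv y w) := by
  have h : Meas 1 (fun w : List S => run (tact y) (1, none) w) := by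
    intro q
    exact (path_dfn (tact y) (tact_aper hN y) (1, none) q).mono (by omega)
  refine h.of_det (fun u v huv => ?_)
  have h1 := tact_run_fst y u (1, none)
  have h2 := tact_run_fst y v (1, none)
  rw [huv] at h1
  simpa [h2] using h1.symm

/-- Step A: the abelian group over an aperiodic monoid. -/
theorem abelian_wr_meas (hN : ∀ x : N, ∃ n, x ^ n = x ^ (n + 1)) (Φ : FreeMonoid S →* Wr G N) :
    Meas 1 (fun w : List S => Φ (FreeMonoid.ofList w)) := by
  refine wr_meas _ (fun m => ?_) ?_
  · simp only [wr_fn_eq]
    exact val_meas hN _ _ m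
  · simp only [wr_top_eq]
    exact topv_meas hN _

end AbelianStep

section Pull

variable {S Y X : Type} [Monoid Y]

/-- The tagged word: each letter with the prefix value before it. -/
def tag (y : S → Y) : Y → List S → List (Y × S)
  | _, [] => []
  | m, s :: w => (m, s) :: tag y (m * y s) w

theorem tag_length (y : S → Y) (m : Y) (w : List S) : (tag y m w).length = w.length := by
  induction w generalizing m with
  | nil => rfl
  | cons s w ih => simp [tag, ih]

theorem tag_append (y : S → Y) (m : Y) (v w : List S) :
    tag y m (v ++ w) = tag y m v ++ tag y (m * topv y v) w := by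
  induction v generalizing m with
  | nil => simp [tag]
  | cons s v ih =>
    simp only [List.cons_append, tag, ih, topv_cons, mul_assoc]

theorem tag_split (y : S → Y) (m : Y) (w : List S) (a b : List (Y × S))
    (h : a ++ b = tag y m w) :
    ∃ v z, w = v ++ z ∧ a = tag y m v ∧ b = tag y (m * topv y v) z := by
  refine ⟨w.take a.length, w.drop a.length, (List.take_append_drop _ _).symm, ?_⟩
  have h1 : tag y m w =
      tag y m (w.take a.length) ++ tag y (m * topv y (w.take a.length)) (w.drop a.length) := by
    rw [← tag_append, List.take_append_drop]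
  rw [h1] at h
  have hlen : a.length ≤ w.length := by
    have := congrArg List.length h
    have h2 := tag_length y m (w.take a.length)
    have h3 := tag_length y (m * topv y (w.take a.length)) (w.drop a.length)
    simp only [List.length_append] at this
    rw [h2, h3, List.length_take, List.length_drop] at this
    omega
  have h4 : a.length = (tag y m (w.take a.length)).length := by
    rw [tag_length, List.length_take]
    omega
  exact List.append_inj h h4

/-- Pull-back of a star-free expression over the tagged alphabet. -/
theorem pull [Finite Y] {k : ℕ} (y : S → Y) (hy : Meas k (fun w : List S => topv y w))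
    (e : GExp (Y × S)) (he : e.height ≤ 0) (m : Y) :
    Dfn k (fun w : List S => tag y m w ∈ e.lang) := by
  induction e generalizing m with
  | zero => exact Dfn.false'.congr (fun w => by simp [GExp.lang, Language.notMem_zero])
  | one =>
    refine Dfn.nil.congr (fun w => ?_)
    simp only [GExp.lang, Language.mem_one]
    cases w <;> simp [tag]
  | letter a =>
    have : Dfn k (fun w : List S => a.1 = m ∧ w = [a.2]) :=
      (Dfn.const _).and (Dfn.letter a.2)
    refine this.congr (fun w => ?_)
    simp only [GExp.lang]
    change _ ↔ tag y m w = [a]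
    constructor
    · rintro ⟨h1, rfl⟩
      simp [tag, ← h1]
    · intro h
      cases w with
      | nil => simp [tag] at h
      | cons s w =>
        simp only [tag, List.cons.injEq] at h
        have h2 : w = [] := by
          have := tag_length y (m * y s) w
          rw [h.2] at this
          simp at this
          exact List.length_eq_zero_iff.1 this.symm
        subst h2
        rw [← h.1]
        simp
  | add P Q hP hQ =>
    simp only [GExp.height, nonpos_iff_eq_zero, Nat.max_eq_zero_iff] at he
    refine ((hP (by omega) m).or (hQ (by omega) m)).congr (fun w => ?_)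
    simp only [GExp.lang, Language.mem_add]
  | mul P Q hP hQ =>
    simp only [GExp.height, nonpos_iff_eq_zero, Nat.max_eq_zero_iff] at he
    have : Dfn k (fun w : List S => ∃ t : Y, ∃ v z, w = v ++ z ∧
        (tag y m v ∈ P.lang ∧ topv y v = t) ∧ tag y (m * t) z ∈ Q.lang) :=
      Dfn.exists_fintype (fun t => Dfn.concat ((hP (by omega) m).and (hy t))
        (hQ (by omega) (m * t)))
    refine this.congr (fun w => ?_)
    simp only [GExp.lang, Language.mem_mul]
    constructor
    · rintro ⟨t, v, z, rfl, ⟨h1, rfl⟩, h3⟩
      exact ⟨_, h1, _, h3, (tag_append y m v z).symm⟩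
    · rintro ⟨a, ha, b, hb, hab⟩
      obtain ⟨v, z, rfl, rfl, rfl⟩ := tag_split y m w a b hab
      exact ⟨_, v, z, rfl, ⟨ha, rfl⟩, hb⟩
  | compl P hP =>
    simp only [GExp.height] at he
    refine (hP he m).not.congr (fun w => ?_)
    simp only [GExp.lang]
    exact Iff.rfl
  | star P _ =>
    simp [GExp.height] at he

end Pull

section AperStep

variable {S X Y : Type} [Finite S] [Monoid X] [Finite X] [Monoid Y] [Finite Y]

/-- The automaton multiplying by the letters of the tagged alphabet. -/
def mact (g : S → Y → X) (t : Y × S) (x : X) : X := x * g t.2 t.1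

omit [Finite S] [Finite X] [Monoid Y] [Finite Y] in
theorem mact_run (g : S → Y → X) (v : List (Y × S)) (x : X) :
    run (mact g) x v = x * run (mact g) 1 v := by
  induction v generalizing x with
  | nil => simp
  | cons t v ih =>
    rw [run_cons, run_cons, ih, ih (mact g t 1)]
    simp [mact, mul_assoc]

omit [Finite S] [Finite X] [Monoid Y] [Finite Y] in
theorem mact_aper (hX : ∀ x : X, ∃ n, x ^ n = x ^ (n + 1)) (g : S → Y → X) : Aper (mact g) := by
  intro u q
  obtain ⟨k, hk⟩ := hX (run (mact g) 1 u)
  set f := fun x => run (mact g) x u with hf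
  have h1 : ∀ K, f^[K] q = q * run (mact g) 1 u ^ K := by
    intro K
    induction K with
    | zero => simp
    | succ K ih =>
      rw [Function.iterate_succ_apply', ih, hf]
      simp only
      rw [mact_run, pow_succ, mul_assoc]
  refine ⟨k, ?_⟩
  change f (f^[k] q) = f^[k] q
  rw [← Function.iterate_succ_apply' f k q, h1, h1, ← hk]

omit [Finite S] [Finite X] [Finite Y] in
theorem val_eq_run (g : S → Y → X) (y : S → Y) (m : Y) (w : List S) :
    val g y m w = run (mact g) 1 (tag y m w) := by
  induction w generalizing m with
  | nil => rfl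
  | cons s w ih =>
    rw [val, ih, tag, run_cons, mact_run g _ (mact g (m, s) 1)]
    simp [mact]

/-- Step B: an aperiodic monoid over a measurable top. -/
theorem aper_wr_meas (hX : ∀ x : X, ∃ n, x ^ n = x ^ (n + 1)) (Φ : FreeMonoid S →* Wr X Y) {k : ℕ}
    (hy : Meas k (fun w : List S => topHom (Φ (FreeMonoid.ofList w)))) :
    Meas k (fun w : List S => Φ (FreeMonoid.ofList w)) := by
  have hy' : Meas k (fun w : List S => topv (fun s => (Φ (FreeMonoid.of s)).top) w) := by
    have : (fun w : List S => topHom (Φ (FreeMonoid.ofList w))) =
        fun w => topv (fun s => (Φ (FreeMonoid.of s)).top) w := by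
      funext w
      exact wr_top_eq Φ w
    rwa [this] at hy
  refine wr_meas _ (fun m => ?_) ?_
  · intro x
    obtain ⟨e, he, hex⟩ := path_dfn (mact (fun s => (Φ (FreeMonoid.of s)).fn))
      (mact_aper hX _) (1 : X) x
    refine (pull _ hy' e he m).congr (fun w => (hex _).trans ?_)
    change run _ 1 _ = x ↔ (Φ (FreeMonoid.ofList w)).fn m = x
    rw [wr_fn_eq, val_eq_run]
  · simp only [wr_top_eq]
    exact hy'

end AperStep

/-- The main theorem: the languages recognized by a wreath product `N₁ ∘ (G ∘ N₂)` with `G` a finite
abelian group and `N₁`, `N₂` finite aperiodic monoids are all definable with star height one. -/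
theorem wreath_main {S N₁ G N₂ : Type} [Finite S]
    [Monoid N₁] [Finite N₁] (h₁ : ∀ x : N₁, ∃ n, x ^ n = x ^ (n + 1))
    [CommGroup G] [Finite G]
    [Monoid N₂] [Finite N₂] (h₂ : ∀ x : N₂, ∃ n, x ^ n = x ^ (n + 1))
    (Φ : FreeMonoid S →* Wr N₁ (Wr G N₂)) :
    Meas 1 (fun w : List S => Φ (FreeMonoid.ofList w)) :=
  aper_wr_meas h₁ Φ (abelian_wr_meas h₂ (topHom.comp Φ))

end Vale.Agent.P329h26
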